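import Vale.Agent.P038.Final

/-! Every oriented graph has a vertex whose second out-neighbourhood has at least `0.77` times
the size of its first out-neighbourhood. -/

namespace Vale.Agent.Results.P038.Const77

open Vale.Agent.P038

theorem result {V : Type*} [Finite V] [Nonempty V] (r : V → V → Prop)
    (hloop : ∀ v, ¬ r v v) (hasym : ∀ u v, r u v → ¬ r v u) :
    ∃ v : V, (77 / 100 : ℝ) * ({u | r v u}.ncard : ℝ) ≤
      ({w | w ≠ v ∧ ¬ r v w ∧ ∃ u, r v u ∧ r u w}.ncard : ℝ) := by
  classical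
  have := Fintype.ofFinite V
  by_contra hc
  push Not at hc
  set E : Finset (V × V) := Finset.univ.filter fun p => r p.1 p.2 with hE
  have hm : ∀ a b, (a, b) ∈ E ↔ r a b := fun a b => by simp [hE]
  refine not_bad E ⟨fun a b h h' => hasym a b ((hm a b).mp h) ((hm b a).mp h'), fun v => ?_⟩
  have h := hc v
  have e1 : {u | r v u} = ((RR E {v} \ {v} : Finset V) : Set V) := by
    ext z
    simp only [Set.mem_setOf_eq, Finset.coe_sdiff, Set.mem_diff, Finset.mem_coe, mem_RR,
      Finset.mem_singleton, exists_eq_left, hm]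
    constructor
    · intro hz
      exact ⟨Or.inr hz, fun h' => hloop v (h' ▸ hz)⟩
    · tauto
  have e2 : {w | w ≠ v ∧ ¬ r v w ∧ ∃ u, r v u ∧ r u w} =
      ((RR E (RR E {v}) \ RR E {v} : Finset V) : Set V) := by
    ext z
    simp only [Set.mem_setOf_eq, Finset.coe_sdiff, Set.mem_diff, Finset.mem_coe, mem_RR,
      Finset.mem_singleton, exists_eq_left, hm]
    constructor
    · rintro ⟨h1, h2, s, h3, h4⟩
      exact ⟨Or.inr ⟨s, Or.inr h3, h4⟩, by tauto⟩
    · rintro ⟨h1 | ⟨s, h1 | h1, h2⟩, h3⟩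
      · exact absurd h1 h3
      · exact absurd (Or.inr (h1 ▸ h2)) h3
      · exact ⟨by tauto, by tauto, s, h1, h2⟩
  rw [e1, e2, Set.ncard_coe_finset, Set.ncard_coe_finset] at h
  have c1 := Finset.card_sdiff_add_card_eq_card (sub_RR E {v})
  have c2 := Finset.card_sdiff_add_card_eq_card (sub_RR E (RR E {v}))
  rw [Finset.card_singleton] at c1
  have h' : 100 * (RR E (RR E {v}) \ RR E {v}).card < 77 * (RR E {v} \ {v}).card := by
    have : (100 : ℝ) * (RR E (RR E {v}) \ RR E {v}).card < 77 * (RR E {v} \ {v}).card := by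
      linarith
    exact_mod_cast this
  omega

end Vale.Agent.Results.P038.Const77
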